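import Vale.Agent.Lib.P240.Orbit

/-! # P240: the homological form of Quillen's conjecture for groups in which the elements of order
`p` act without a common fixed pair on a normal subgroup of order prime to `p` -/

namespace Vale.Agent.Results.P240.A_NormalSubgroup

open Vale.Agent.Lib.P240

variable {G : Type} [Group G]

theorem main [Finite G] (p q : ℕ) (hp : p.Prime) [Fact q.Prime] (N : Subgroup G) [hNn : N.Normal]
    (hN : ∀ y ∈ N, orderOf y ≠ p) (g : G) (hg : g ∈ N) (Q : Subgroup G) (hQN : Q ≤ N)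
    (hQ : IsPGroup q Q) (hnorm : Normalises Q (Subgroup.zpowers g))
    (hfaith : ∀ y : G, orderOf y = p → g * y ≠ y * g ∨ ∃ n ∈ Q, n * y ≠ y * n) :
    ¬ Acyclic p G := by
  apply not_acyclic_of_hyperelementary p q g Q hQ hnorm
  intro E hE hQE hgE
  obtain ⟨x, hx, hx1⟩ : ∃ x ∈ E, x ≠ 1 := by
    by_contra hcon
    push Not at hcon
    exact hE.1 ((Subgroup.eq_bot_iff_forall E).2 hcon)
  have hox : orderOf x = p := orderOf_eq_prime (hp := ⟨hp⟩) (hE.2.2 x hx) hx1
  -- an element of `N` normalising `E` and not commuting with `x`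
  obtain ⟨h, hhN, hhE, hne⟩ : ∃ h ∈ N, h * x * h⁻¹ ∈ E ∧ h * x ≠ x * h := by
    rcases hfaith x hox with h1 | ⟨n, hn, h1⟩
    · exact ⟨g, hg, hgE g (Subgroup.mem_zpowers g) x hx, h1⟩
    · exact ⟨n, hQN hn, hQE n hn x hx, h1⟩
  have hcE : h * x * h⁻¹ * x⁻¹ ∈ E := E.mul_mem hhE (E.inv_mem hx)
  have hcN : h * x * h⁻¹ * x⁻¹ ∈ N := by
    have h2 : x * h⁻¹ * x⁻¹ ∈ N := hNn.conj_mem _ (N.inv_mem hhN) x
    have h3 : h * x * h⁻¹ * x⁻¹ = h * (x * h⁻¹ * x⁻¹) := by group
    rw [h3]
    exact N.mul_mem hhN h2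
  have hc1 : h * x * h⁻¹ * x⁻¹ ≠ 1 := by
    intro h4
    apply hne
    have h5 : h * x = (h * x * h⁻¹ * x⁻¹) * (x * h) := by group
    rw [h5, h4, one_mul]
  exact hN _ hcN (orderOf_eq_prime (hp := ⟨hp⟩) (hE.2.2 _ hcE) hc1)

/-- Let `G` be a finite group and `p`, `q` primes.
(1) If `g` is an element of `G`, `Q` a `q`-subgroup normalising the cyclic group generated by `g`, and
no nonidentity elementary abelian `p`-subgroup is normalised both by `Q` and by `g`, then the reduced
rational homology of the order complex of the poset of these subgroups does not vanish.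
(2) The same conclusion holds if `g` and `Q` lie in a normal subgroup `N` without elements of order `p`
and no element of order `p` of `G` commutes with `g` and with all of `Q`.
(3) In particular it holds if `p ≠ q` and `G` has a normal `q`-subgroup `Q` which is centralised by no
element of order `p`.
(4) In particular it holds if some element `g` of a normal subgroup without elements of order `p`
commutes with no element of order `p`. -/
theorem result [Finite G] (p q : ℕ) (hp : p.Prime) [Fact q.Prime] :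
    (∀ (g : G) (Q : Subgroup G), IsPGroup q Q → Normalises Q (Subgroup.zpowers g) →
      (∀ E : Subgroup G, IsElemAb p E → Normalises Q E → ¬ Normalises (Subgroup.zpowers g) E) →
      ¬ Acyclic p G) ∧
    (∀ (N : Subgroup G), N.Normal → (∀ y ∈ N, orderOf y ≠ p) →
      ∀ (g : G) (Q : Subgroup G), g ∈ N → Q ≤ N → IsPGroup q Q →
      Normalises Q (Subgroup.zpowers g) →
      (∀ y : G, orderOf y = p → g * y ≠ y * g ∨ ∃ n ∈ Q, n * y ≠ y * n) → ¬ Acyclic p G) ∧
    (p ≠ q → ∀ Q : Subgroup G, Q.Normal → IsPGroup q Q →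
      (∀ y : G, orderOf y = p → ∃ n ∈ Q, n * y ≠ y * n) → ¬ Acyclic p G) ∧
    (∀ (N : Subgroup G), N.Normal → (∀ y ∈ N, orderOf y ≠ p) →
      ∀ g ∈ N, (∀ y : G, orderOf y = p → g * y ≠ y * g) → ¬ Acyclic p G) := by
  refine ⟨?_, ?_, ?_, ?_⟩
  · intro g Q hQ hnorm hno
    exact not_acyclic_of_hyperelementary p q g Q hQ hnorm hno
  · intro N hNn hN g Q hg hQN hQ hnorm hfaith
    exact main p q hp N hN g hg Q hQN hQ hnorm hfaith
  · intro hpq Q hQn hQ hfaith
    refine main p q hp Q ?_ 1 Q.one_mem Q le_rfl hQ ?_ ?_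
    · intro y hy hoy
      obtain ⟨k, hk⟩ := (IsPGroup.iff_orderOf.mp hQ) ⟨y, hy⟩
      rw [Subgroup.orderOf_mk, hoy] at hk
      have h1 : q ∣ p := by
        rcases Nat.eq_zero_or_pos k with h0 | hpos
        · rw [h0, pow_zero] at hk
          exact absurd hk hp.one_lt.ne'
        · rw [hk]
          exact dvd_pow_self q hpos.ne'
      have h2 := (Nat.prime_dvd_prime_iff_eq (Fact.out : q.Prime) hp).1 h1
      exact hpq h2.symm
    · intro x _ y hy
      rw [Subgroup.zpowers_one_eq_bot, Subgroup.mem_bot] at hy ⊢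
      rw [hy]
      group
    · intro y hy
      exact Or.inr (hfaith y hy)
  · intro N hNn hN g hg hfaith
    refine main p q hp N hN g hg ⊥ bot_le IsPGroup.of_bot ?_ ?_
    · intro x hx y hy
      rw [Subgroup.mem_bot] at hx
      rw [hx]
      simpa using hy
    · intro y hy
      exact Or.inl (hfaith y hy)

end Vale.Agent.Results.P240.A_NormalSubgroup
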