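import Mathlib

open scoped Pointwise

namespace Vale.Agent.Results.P240.HomologicalForm

/-- `E` is a nonidentity elementary abelian `p`-subgroup of `G` -/
def IsElemAb {G : Type} [Group G] (p : ℕ) (E : Subgroup G) : Prop :=
  E ≠ ⊥ ∧ (∀ x ∈ E, ∀ y ∈ E, x * y = y * x) ∧ ∀ x ∈ E, x ^ p = 1

/-- the subgroup `Q` normalises the subgroup `E` -/
def Normalises {G : Type} [Group G] (Q E : Subgroup G) : Prop :=
  ∀ g ∈ Q, ∀ x ∈ E, g * x * g⁻¹ ∈ E

/-- the strictly increasing chains `E_0 < ... < E_(n-1)` of nonidentity elementary abelian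
`p`-subgroups of `G`: the simplices of dimension `n - 1` of the order complex -/
def Simp (p : ℕ) (G : Type) [Group G] (n : ℕ) : Type :=
  {σ : Fin n → Subgroup G // StrictMono σ ∧ ∀ i, IsElemAb p (σ i)}

/-- the `i`-th face: omit `E_i` -/
def face {p : ℕ} {G : Type} [Group G] {n : ℕ} (σ : Simp p G (n + 1)) (i : Fin (n + 1)) :
    Simp p G n :=
  ⟨σ.1 ∘ i.succAbove, σ.2.1.comp (Fin.strictMono_succAbove i), fun _ => σ.2.2 _⟩

/-- the boundary map of the augmented rational simplicial chain complex of the order complex, from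
chains on simplices with `n + 1` vertices to chains on simplices with `n` vertices -/
noncomputable def bd (p : ℕ) (G : Type) [Group G] (n : ℕ) :
    (Simp p G (n + 1) →₀ ℚ) →ₗ[ℚ] (Simp p G n →₀ ℚ) :=
  Finsupp.linearCombination ℚ
    (fun σ => ∑ i : Fin (n + 1), Finsupp.single (face σ i) ((-1 : ℚ) ^ (i : ℕ)))

/-- all reduced rational homology groups of the order complex vanish (degree `-1` and, for each `n`,
degree `n`) -/
def Acyclic (p : ℕ) (G : Type) [Group G] : Prop :=
  LinearMap.range (bd p G 0) = ⊤ ∧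
    ∀ n, LinearMap.ker (bd p G n) = LinearMap.range (bd p G (n + 1))

variable {G : Type} [Group G]

instance [Finite G] (p n : ℕ) : Finite (Simp p G n) := by
  unfold Simp
  infer_instance

theorem finrank_chains [Finite G] (p n : ℕ) :
    Module.finrank ℚ (Simp p G n →₀ ℚ) = Nat.card (Simp p G n) := by
  have := Fintype.ofFinite (Simp p G n)
  rw [Module.finrank_finsupp_self, Nat.card_eq_fintype_card]

theorem card_simp_zero (p : ℕ) : Nat.card (Simp p G 0) = 1 := by
  rw [Nat.card_eq_one_iff_unique]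
  refine ⟨⟨?_⟩, ⟨⟨fun i => i.elim0, fun i => i.elim0, fun i => i.elim0⟩⟩⟩
  intro a b
  apply Subtype.ext
  funext i
  exact i.elim0

theorem card_simp_large [Finite G] (p n : ℕ) (hn : Nat.card (Subgroup G) < n) :
    Nat.card (Simp p G n) = 0 := by
  have : IsEmpty (Simp p G n) := by
    constructor
    intro σ
    have h := Nat.card_le_card_of_injective σ.1 σ.2.1.injective
    rw [Nat.card_eq_fintype_card, Fintype.card_fin] at h
    omega
  exact Nat.card_of_isEmpty

theorem isElemAb_smul (p : ℕ) (φ : MulAut G) {E : Subgroup G} (hE : IsElemAb p E) :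
    IsElemAb p (φ • E) := by
  obtain ⟨h1, h2, h3⟩ := hE
  refine ⟨?_, ?_, ?_⟩
  · intro hb
    apply h1
    rw [Subgroup.eq_bot_iff_forall] at hb ⊢
    intro x hx
    have h4 : φ • x = 1 := hb _ (Subgroup.smul_mem_pointwise_smul x φ E hx)
    have h5 : φ x = 1 := h4
    exact (map_eq_one_iff φ φ.injective).1 h5
  · intro x hx y hy
    obtain ⟨a, ha, rfl⟩ := (Subgroup.mem_smul_pointwise_iff_exists x φ E).1 hx
    obtain ⟨b, hb, rfl⟩ := (Subgroup.mem_smul_pointwise_iff_exists y φ E).1 hy
    show φ a * φ b = φ b * φ a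
    rw [← map_mul, ← map_mul, h2 a ha b hb]
  · intro x hx
    obtain ⟨a, ha, rfl⟩ := (Subgroup.mem_smul_pointwise_iff_exists x φ E).1 hx
    show (φ a) ^ p = 1
    rw [← map_pow, h3 a ha, map_one]

/-- orbit counting: the number of nonempty chains of a given length is divisible by `q` -/
theorem card_simp_succ [Finite G] (p q : ℕ) [Fact q.Prime] (Q : Subgroup G) (hQ : IsPGroup q Q)
    (hno : ∀ E : Subgroup G, IsElemAb p E → ¬ Normalises Q E) (n : ℕ) :
    q ∣ Nat.card (Simp p G (n + 1)) := by
  have hA : IsPGroup q (Q.map (MulAut.conj : G →* MulAut G)) := hQ.map _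
  let X : SubMulAction (Q.map (MulAut.conj : G →* MulAut G)) (Fin (n + 1) → Subgroup G) :=
    { carrier := {σ | StrictMono σ ∧ ∀ i, IsElemAb p (σ i)}
      smul_mem' := by
        intro φ σ hσ
        refine ⟨?_, fun i => isElemAb_smul p φ.1 (hσ.2 i)⟩
        intro i j hij
        have h1 := hσ.1 hij
        rw [lt_iff_le_not_ge] at h1 ⊢
        exact ⟨Subgroup.pointwise_smul_le_pointwise_smul_iff.2 h1.1,
          fun h => h1.2 (Subgroup.pointwise_smul_le_pointwise_smul_iff.1 h)⟩ }
  have h1 := hA.card_modEq_card_fixedPoints X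
  have e1 : Nat.card X = Nat.card (Simp p G (n + 1)) := rfl
  have : IsEmpty (MulAction.fixedPoints (Q.map (MulAut.conj : G →* MulAut G)) X) := by
    constructor
    intro a
    apply hno (a.1.1 0) (a.1.2.2 0)
    intro g hg x hx
    have h2 := a.2 ⟨MulAut.conj g, Subgroup.mem_map_of_mem _ hg⟩
    have h3 : MulAut.conj g • a.1.1 0 = a.1.1 0 := congrFun (congrArg Subtype.val h2) 0
    have h4 : MulAut.conj g • x ∈ MulAut.conj g • a.1.1 0 :=
      Subgroup.smul_mem_pointwise_smul x _ _ hx
    rw [h3] at h4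
    exact h4
  have e2 : Nat.card (MulAction.fixedPoints (Q.map (MulAut.conj : G →* MulAut G)) X) = 0 :=
    Nat.card_of_isEmpty
  rw [e1, e2] at h1
  exact (Nat.modEq_zero_iff_dvd).1 h1

/-- if a `q`-subgroup `Q` normalises `E` and no nonidentity element of `E` commutes with all of `Q`
then `q` divides `|E| - 1` -/
theorem dvd_card_sub_one [Finite G] (q : ℕ) [Fact q.Prime] (Q E : Subgroup G)
    (hQ : IsPGroup q Q) (hN : Normalises Q E)
    (hc : ∀ y ∈ E, (∀ g ∈ Q, g * y = y * g) → y = 1) : q ∣ Nat.card E - 1 := by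
  have hA : IsPGroup q (Q.map (MulAut.conj : G →* MulAut G)) := hQ.map _
  let X : SubMulAction (Q.map (MulAut.conj : G →* MulAut G)) G :=
    { carrier := E
      smul_mem' := by
        intro φ y hy
        obtain ⟨g, hg, hφ⟩ := Subgroup.mem_map.1 φ.2
        have : φ • y = g * y * g⁻¹ := by
          show φ.1 y = _
          rw [← hφ]; rfl
        rw [this]
        exact hN g hg y hy }
  have h1 := hA.card_modEq_card_fixedPoints X
  have e1 : Nat.card X = Nat.card E := rfl
  have e2 : Nat.card (MulAction.fixedPoints (Q.map (MulAut.conj : G →* MulAut G)) X) = 1 := by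
    rw [Nat.card_eq_one_iff_unique]
    have hfix : ∀ a : MulAction.fixedPoints (Q.map (MulAut.conj : G →* MulAut G)) X,
        a.1.1 = 1 := by
      intro a
      apply hc a.1.1 a.1.2
      intro g hg
      have h2 := a.2 ⟨MulAut.conj g, Subgroup.mem_map_of_mem _ hg⟩
      have h3 : g * a.1.1 * g⁻¹ = a.1.1 := congrArg Subtype.val h2
      calc g * a.1.1 = g * a.1.1 * g⁻¹ * g := by group
        _ = a.1.1 * g := by rw [h3]
    refine ⟨⟨?_⟩, ⟨⟨⟨1, E.one_mem⟩, ?_⟩⟩⟩
    · intro a b
      apply Subtype.ext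
      apply Subtype.ext
      rw [hfix a, hfix b]
    · intro φ
      apply Subtype.ext
      show φ.1 1 = 1
      exact map_one _
  rw [e1, e2] at h1
  exact (Nat.modEq_iff_dvd' Nat.card_pos).1 h1.symm

/-- the ranks of the boundary maps of an acyclic complex alternate modulo `q` -/
theorem rank_modEq [Finite G] (p q : ℕ) (hac : Acyclic p G)
    (hdiv : ∀ n, q ∣ Nat.card (Simp p G (n + 1))) (n : ℕ) :
    (Module.finrank ℚ (LinearMap.range (bd p G n)) : ℤ) ≡ (-1) ^ n [ZMOD q] := by
  induction n with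
  | zero =>
    rw [hac.1, finrank_top, finrank_chains, card_simp_zero]
    simp
  | succ n ih =>
    have h1 := LinearMap.finrank_range_add_finrank_ker (bd p G n)
    rw [hac.2 n, finrank_chains] at h1
    have h2 : ((Nat.card (Simp p G (n + 1)) : ℕ) : ℤ) ≡ 0 [ZMOD q] :=
      (Int.modEq_zero_iff_dvd).2 (by exact_mod_cast hdiv n)
    rw [← h1] at h2
    push_cast at h2
    have h3 := h2.sub ih
    have e : (Module.finrank ℚ (LinearMap.range (bd p G n)) : ℤ)
        + (Module.finrank ℚ (LinearMap.range (bd p G (n + 1))) : ℤ)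
        - (Module.finrank ℚ (LinearMap.range (bd p G n)) : ℤ)
        = (Module.finrank ℚ (LinearMap.range (bd p G (n + 1))) : ℤ) := by ring
    rw [e] at h3
    have e2 : (0 : ℤ) - (-1) ^ n = (-1) ^ (n + 1) := by ring
    rw [e2] at h3
    exact h3

theorem not_acyclic [Finite G] (p q : ℕ) [Fact q.Prime] (Q : Subgroup G) (hQ : IsPGroup q Q)
    (hno : ∀ E : Subgroup G, IsElemAb p E → ¬ Normalises Q E) : ¬ Acyclic p G := by
  intro hac
  have h1 := rank_modEq p q hac (card_simp_succ p q Q hQ hno) (Nat.card (Subgroup G))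
  have h2 : Module.finrank ℚ (LinearMap.range (bd p G (Nat.card (Subgroup G)))) = 0 := by
    have h3 := LinearMap.finrank_range_le (bd p G (Nat.card (Subgroup G)))
    rw [finrank_chains, card_simp_large p _ (Nat.lt_succ_self _)] at h3
    omega
  rw [h2] at h1
  have h4 : (q : ℤ) ∣ (-1) ^ (Nat.card (Subgroup G)) - ((0 : ℕ) : ℤ) := (Int.modEq_iff_dvd).1 h1
  have h5 : (q : ℤ) ∣ 1 := by
    rcases neg_one_pow_eq_or ℤ (Nat.card (Subgroup G)) with h | h
    · rw [h] at h4; simpa using h4
    · rw [h] at h4; simpa using h4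
  have h6 : q ∣ 1 := by exact_mod_cast h5
  exact (Fact.out : q.Prime).one_lt.ne' (Nat.dvd_one.1 h6)

/-- Let `G` be a finite group, `p`, `q` primes, `Q` a `q`-subgroup of `G`.  If `Q` normalises no
nonidentity elementary abelian `p`-subgroup of `G`, then the reduced rational homology of the order
complex of the poset of these subgroups does not vanish.  This happens in particular if no element
of order `p` commutes with all of `Q` and `q` divides `|E| - 1` for no such subgroup `E`. -/
theorem result [Finite G] (p q : ℕ) (hp : p.Prime) [Fact q.Prime] (Q : Subgroup G)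
    (hQ : IsPGroup q Q) :
    ((∀ E : Subgroup G, IsElemAb p E → ¬ Normalises Q E) → ¬ Acyclic p G) ∧
    ((∀ y : G, orderOf y = p → ∃ g ∈ Q, g * y ≠ y * g) →
      (∀ E : Subgroup G, IsElemAb p E → ¬ q ∣ Nat.card E - 1) → ¬ Acyclic p G) := by
  refine ⟨not_acyclic p q Q hQ, ?_⟩
  intro hcent hdiv
  apply not_acyclic p q Q hQ
  intro E hE hN
  apply hdiv E hE
  apply dvd_card_sub_one q Q E hQ hN
  intro y hy hcomm
  by_contra hy1
  obtain ⟨g, hg, hne⟩ := hcent y (orderOf_eq_prime (hp := ⟨hp⟩) (hE.2.2 y hy) hy1)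
  exact hne (hcomm g hg)

end Vale.Agent.Results.P240.HomologicalForm
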