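import Vale.Agent.Results.P240.FixedPointCriterion
import Vale.Agent.Results.P240.HomologicalForm
import Vale.Agent.Results.P240.A_NormalSubgroup

/-! # P240: all our fixed point criteria for Quillen's conjecture in one statement -/

namespace Vale.Agent.Results.P240.A0_All

open Vale.Agent.Lib.P240
open Vale.Agent.Results.P240.FixedPointCriterion (redEuler)

/-- Fixed point criteria for the poset `A_p(G)` of nonidentity elementary abelian `p`-subgroups of a
finite group `G`: congruences for the reduced Euler characteristic, and non-vanishing of the reduced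
rational homology. -/
theorem result {G : Type} [Group G] [Finite G] (p q : ℕ) (hp : p.Prime) [Fact q.Prime] :
    (∀ Q : Subgroup G, IsPGroup q Q →
      (redEuler {E : Subgroup G | IsElemAb p E}
        ≡ redEuler {E : Subgroup G | IsElemAb p E ∧ Normalises Q E} [ZMOD q]) ∧
      ((∀ E : Subgroup G, IsElemAb p E → ¬ Normalises Q E) →
        (redEuler {E : Subgroup G | IsElemAb p E} ≡ -1 [ZMOD q]) ∧
          redEuler {E : Subgroup G | IsElemAb p E} ≠ 0) ∧
      ((∀ y : G, orderOf y = p → ∃ g ∈ Q, g * y ≠ y * g) →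
        (∀ E : Subgroup G, IsElemAb p E → ¬ q ∣ Nat.card E - 1) →
        (redEuler {E : Subgroup G | IsElemAb p E} ≡ -1 [ZMOD q]) ∧
          redEuler {E : Subgroup G | IsElemAb p E} ≠ 0 ∧ ¬ Acyclic p G)) ∧
    (∀ (g : G) (Q : Subgroup G), IsPGroup q Q → Normalises Q (Subgroup.zpowers g) →
      (∀ E : Subgroup G, IsElemAb p E → Normalises Q E → ¬ Normalises (Subgroup.zpowers g) E) →
      ¬ Acyclic p G) ∧
    (∀ (N : Subgroup G), N.Normal → (∀ y ∈ N, orderOf y ≠ p) →
      ∀ (g : G) (Q : Subgroup G), g ∈ N → Q ≤ N → IsPGroup q Q →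
      Normalises Q (Subgroup.zpowers g) →
      (∀ y : G, orderOf y = p → g * y ≠ y * g ∨ ∃ n ∈ Q, n * y ≠ y * n) → ¬ Acyclic p G) ∧
    (p ≠ q → ∀ Q : Subgroup G, Q.Normal → IsPGroup q Q →
      (∀ y : G, orderOf y = p → ∃ n ∈ Q, n * y ≠ y * n) → ¬ Acyclic p G) ∧
    (∀ (N : Subgroup G), N.Normal → (∀ y ∈ N, orderOf y ≠ p) →
      ∀ g ∈ N, (∀ y : G, orderOf y = p → g * y ≠ y * g) → ¬ Acyclic p G) := by
  obtain ⟨b1, b2, b3, b4⟩ := A_NormalSubgroup.result (G := G) p q hp
  refine ⟨?_, b1, b2, b3, b4⟩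
  intro Q hQ
  obtain ⟨a1, a2, a3⟩ := FixedPointCriterion.result p q hp Q hQ
  refine ⟨a1, a2, ?_⟩
  intro h1 h2
  obtain ⟨c1, c2⟩ := a3 h1 h2
  exact ⟨c1, c2, (HomologicalForm.result p q hp Q hQ).2 h1 h2⟩

end Vale.Agent.Results.P240.A0_All
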