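import Mathlib

open scoped Pointwise

namespace Vale.Agent.Results.P240.FixedPointCriterion

variable {G : Type} [Group G]

/-- `E` is a nonidentity elementary abelian `p`-subgroup of `G` -/
def IsElemAb (p : ℕ) (E : Subgroup G) : Prop :=
  E ≠ ⊥ ∧ (∀ x ∈ E, ∀ y ∈ E, x * y = y * x) ∧ ∀ x ∈ E, x ^ p = 1

/-- the subgroup `Q` normalises the subgroup `E` -/
def Normalises (Q E : Subgroup G) : Prop := ∀ g ∈ Q, ∀ x ∈ E, g * x * g⁻¹ ∈ E

/-- `c` is a chain of members of `S`: a finite set of members of `S` that is totally ordered by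
inclusion (the empty set is allowed) -/
def IsChainIn (S : Set (Subgroup G)) (c : Finset (Subgroup G)) : Prop :=
  (∀ E ∈ c, E ∈ S) ∧ IsChain (· ≤ ·) (c : Set (Subgroup G))

/-- The reduced Euler characteristic of the order complex of the poset `S` of subgroups: a chain with
`k + 1` elements is a simplex of dimension `k` and counts `(-1) ^ k`; the empty chain has
dimension `-1`. -/
noncomputable def redEuler (S : Set (Subgroup G)) : ℤ :=
  (Nat.card {c : Finset (Subgroup G) // IsChainIn S c ∧ Odd c.card} : ℤ)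
    - (Nat.card {c : Finset (Subgroup G) // IsChainIn S c ∧ Even c.card} : ℤ)

theorem card_smul_subgroup (φ : MulAut G) (E : Subgroup G) :
    Nat.card (φ • E : Subgroup G) = Nat.card E :=
  (Nat.card_congr (Subgroup.equivSMul φ E).toEquiv).symm

/-- a member of a chain that is mapped into the chain by an automorphism is fixed -/
theorem fixed_of_chain [Finite G] {c : Finset (Subgroup G)}
    (hc : IsChain (· ≤ ·) (c : Set (Subgroup G))) (φ : MulAut G) {E : Subgroup G} (hE : E ∈ c)
    (hφ : φ • E ∈ c) : φ • E = E := by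
  by_contra hne
  rcases hc (Finset.mem_coe.2 hφ) (Finset.mem_coe.2 hE) hne with h | h
  · exact hne (Subgroup.eq_of_le_of_card_ge h (card_smul_subgroup φ E).ge)
  · exact hne (Subgroup.eq_of_le_of_card_ge h (card_smul_subgroup φ E).le).symm

theorem count_modEq [Finite G] (q : ℕ) [Fact q.Prime] (A : Subgroup (MulAut G))
    (hA : IsPGroup q A) (S : Set (Subgroup G)) (hS : ∀ φ ∈ A, ∀ E ∈ S, φ • E ∈ S)
    (par : ℕ → Prop) :
    Nat.card {c : Finset (Subgroup G) // IsChainIn S c ∧ par c.card}
      ≡ Nat.card {c : Finset (Subgroup G) //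
          IsChainIn {E | E ∈ S ∧ ∀ φ ∈ A, φ • E = E} c ∧ par c.card} [MOD q] := by
  classical
  let X : SubMulAction A (Finset (Subgroup G)) :=
    { carrier := {c | IsChainIn S c ∧ par c.card}
      smul_mem' := by
        intro φ c hc
        refine ⟨⟨?_, ?_⟩, ?_⟩
        · intro E hE
          obtain ⟨E', hE', rfl⟩ := Finset.mem_smul_finset.1 hE
          exact hS φ.1 φ.2 E' (hc.1.1 E' hE')
        · intro E hE E' hE' hne
          obtain ⟨E₁, hE₁, rfl⟩ := Finset.mem_smul_finset.1 (Finset.mem_coe.1 hE)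
          obtain ⟨E₂, hE₂, rfl⟩ := Finset.mem_smul_finset.1 (Finset.mem_coe.1 hE')
          have hne' : E₁ ≠ E₂ := fun h => hne (by rw [h])
          rcases hc.1.2 (Finset.mem_coe.2 hE₁) (Finset.mem_coe.2 hE₂) hne' with h | h
          · exact Or.inl (Subgroup.pointwise_smul_le_pointwise_smul_iff.2 h)
          · exact Or.inr (Subgroup.pointwise_smul_le_pointwise_smul_iff.2 h)
        · rw [Finset.card_smul_finset]
          exact hc.2 }
  have h1 := hA.card_modEq_card_fixedPoints X
  have e1 : Nat.card X = Nat.card {c : Finset (Subgroup G) // IsChainIn S c ∧ par c.card} := rfl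
  have e2 : Nat.card (MulAction.fixedPoints A X) = Nat.card {c : Finset (Subgroup G) //
      IsChainIn {E | E ∈ S ∧ ∀ φ ∈ A, φ • E = E} c ∧ par c.card} := by
    refine Nat.card_congr
      { toFun := fun a => ⟨a.1.1, ⟨?_, a.1.2.1.2⟩, a.1.2.2⟩
        invFun := fun c => ⟨⟨c.1, ⟨fun E hE => (c.2.1.1 E hE).1, c.2.1.2⟩, c.2.2⟩, ?_⟩
        left_inv := fun a => rfl
        right_inv := fun c => rfl }
    · intro E hE
      refine ⟨a.1.2.1.1 E hE, ?_⟩
      intro φ hφ
      have h2 : (⟨φ, hφ⟩ : A) • a.1 = a.1 := a.2 ⟨φ, hφ⟩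
      have h3 : (⟨φ, hφ⟩ : A) • a.1.1 = a.1.1 := congrArg Subtype.val h2
      have h4 : φ • E ∈ a.1.1 := by
        have : (⟨φ, hφ⟩ : A) • E ∈ (⟨φ, hφ⟩ : A) • a.1.1 := Finset.smul_mem_smul_finset hE
        rw [h3] at this
        exact this
      exact fixed_of_chain a.1.2.1.2 φ hE h4
    · intro φ
      apply Subtype.ext
      show φ • c.1 = c.1
      ext E
      constructor
      · intro hE
        obtain ⟨E', hE', rfl⟩ := Finset.mem_smul_finset.1 hE
        have : φ.1 • E' = E' := (c.2.1.1 E' hE').2 φ.1 φ.2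
        have h5 : φ • E' = E' := this
        rw [h5]; exact hE'
      · intro hE
        have : φ.1 • E = E := (c.2.1.1 E hE).2 φ.1 φ.2
        have h5 : φ • E = E := this
        rw [← h5]
        exact Finset.smul_mem_smul_finset hE
  rw [e1, e2] at h1
  exact h1

theorem isElemAb_smul (p : ℕ) (φ : MulAut G) {E : Subgroup G} (hE : IsElemAb p E) :
    IsElemAb p (φ • E) := by
  obtain ⟨h1, h2, h3⟩ := hE
  refine ⟨?_, ?_, ?_⟩
  · intro hb
    apply h1
    rw [Subgroup.eq_bot_iff_forall] at hb ⊢
    intro x hx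
    have h4 : φ • x = 1 := hb _ (Subgroup.smul_mem_pointwise_smul x φ E hx)
    have h5 : φ x = 1 := h4
    exact (map_eq_one_iff φ φ.injective).1 h5
  · intro x hx y hy
    obtain ⟨a, ha, rfl⟩ := (Subgroup.mem_smul_pointwise_iff_exists x φ E).1 hx
    obtain ⟨b, hb, rfl⟩ := (Subgroup.mem_smul_pointwise_iff_exists y φ E).1 hy
    show φ a * φ b = φ b * φ a
    rw [← map_mul, ← map_mul, h2 a ha b hb]
  · intro x hx
    obtain ⟨a, ha, rfl⟩ := (Subgroup.mem_smul_pointwise_iff_exists x φ E).1 hx
    show (φ a) ^ p = 1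
    rw [← map_pow, h3 a ha, map_one]

theorem fixed_iff_normalises [Finite G] (Q E : Subgroup G) :
    (∀ φ ∈ Q.map (MulAut.conj : G →* MulAut G), φ • E = E) ↔ Normalises Q E := by
  constructor
  · intro h g hg x hx
    have h1 := h (MulAut.conj g) (Subgroup.mem_map_of_mem _ hg)
    have h2 : MulAut.conj g • x ∈ MulAut.conj g • E :=
      Subgroup.smul_mem_pointwise_smul x _ E hx
    rw [h1] at h2
    exact h2
  · intro h φ hφ
    obtain ⟨g, hg, rfl⟩ := Subgroup.mem_map.1 hφ
    refine Subgroup.eq_of_le_of_card_ge ?_ (card_smul_subgroup _ E).ge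
    intro x hx
    obtain ⟨a, ha, rfl⟩ := (Subgroup.mem_smul_pointwise_iff_exists x _ E).1 hx
    exact h g hg a ha

theorem isChainIn_empty (c : Finset (Subgroup G)) : IsChainIn (∅ : Set (Subgroup G)) c ↔ c = ∅ := by
  constructor
  · intro h
    rw [Finset.eq_empty_iff_forall_notMem]
    intro E hE
    exact h.1 E hE
  · rintro rfl
    exact ⟨by simp, by simp⟩

theorem redEuler_empty : redEuler (∅ : Set (Subgroup G)) = -1 := by
  unfold redEuler
  have h1 : IsEmpty {c : Finset (Subgroup G) // IsChainIn (∅ : Set (Subgroup G)) c ∧ Odd c.card} := by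
    constructor
    rintro ⟨c, hc, hodd⟩
    rw [(isChainIn_empty c).1 hc] at hodd
    simp at hodd
  have h2 : Nat.card
      {c : Finset (Subgroup G) // IsChainIn (∅ : Set (Subgroup G)) c ∧ Even c.card} = 1 := by
    rw [Nat.card_eq_one_iff_unique]
    refine ⟨⟨?_⟩, ⟨⟨∅, (isChainIn_empty ∅).2 rfl, by simp⟩⟩⟩
    rintro ⟨c, hc, -⟩ ⟨c', hc', -⟩
    apply Subtype.ext
    show c = c'
    rw [(isChainIn_empty c).1 hc, (isChainIn_empty c').1 hc']
  rw [h2, Nat.card_of_isEmpty]
  norm_num

/-- if a `q`-subgroup `Q` normalises `E` and no nonidentity element of `E` commutes with all of `Q`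
then `q` divides `|E| - 1` -/
theorem dvd_card_sub_one [Finite G] (q : ℕ) [Fact q.Prime] (Q E : Subgroup G)
    (hQ : IsPGroup q Q) (hN : Normalises Q E)
    (hc : ∀ y ∈ E, (∀ g ∈ Q, g * y = y * g) → y = 1) : q ∣ Nat.card E - 1 := by
  have hA : IsPGroup q (Q.map (MulAut.conj : G →* MulAut G)) := hQ.map _
  let X : SubMulAction (Q.map (MulAut.conj : G →* MulAut G)) G :=
    { carrier := E
      smul_mem' := by
        intro φ y hy
        obtain ⟨g, hg, hφ⟩ := Subgroup.mem_map.1 φ.2
        have : φ • y = g * y * g⁻¹ := by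
          show φ.1 y = _
          rw [← hφ]; rfl
        rw [this]
        exact hN g hg y hy }
  have h1 := hA.card_modEq_card_fixedPoints X
  have e1 : Nat.card X = Nat.card E := rfl
  have e2 : Nat.card (MulAction.fixedPoints (Q.map (MulAut.conj : G →* MulAut G)) X) = 1 := by
    rw [Nat.card_eq_one_iff_unique]
    have hfix : ∀ a : MulAction.fixedPoints (Q.map (MulAut.conj : G →* MulAut G)) X,
        a.1.1 = 1 := by
      intro a
      apply hc a.1.1 a.1.2
      intro g hg
      have h2 := a.2 ⟨MulAut.conj g, Subgroup.mem_map_of_mem _ hg⟩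
      have h3 : g * a.1.1 * g⁻¹ = a.1.1 := congrArg Subtype.val h2
      calc g * a.1.1 = g * a.1.1 * g⁻¹ * g := by group
        _ = a.1.1 * g := by rw [h3]
    refine ⟨⟨?_⟩, ⟨⟨⟨1, E.one_mem⟩, ?_⟩⟩⟩
    · intro a b
      apply Subtype.ext
      apply Subtype.ext
      rw [hfix a, hfix b]
    · intro φ
      apply Subtype.ext
      show φ.1 1 = 1
      exact map_one _
  rw [e1, e2] at h1
  exact (Nat.modEq_iff_dvd' Nat.card_pos).1 h1.symm

/-- Let `G` be a finite group, `p` and `q` primes and `Q` a `q`-subgroup of `G`.  The reduced Euler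
characteristic of the order complex of the poset of nonidentity elementary abelian `p`-subgroups of
`G` is congruent modulo `q` to that of the subposet of the members normalised by `Q`.  If `Q`
normalises no nonidentity elementary abelian `p`-subgroup, it is congruent to `-1` modulo `q`, and
so it is not zero.  This happens in particular if no element of order `p` commutes with all of `Q`
and `q` divides `|E| - 1` for no nonidentity elementary abelian `p`-subgroup `E`. -/
theorem result [Finite G] (p q : ℕ) (hp : p.Prime) [Fact q.Prime] (Q : Subgroup G)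
    (hQ : IsPGroup q Q) :
    (redEuler {E : Subgroup G | IsElemAb p E}
      ≡ redEuler {E : Subgroup G | IsElemAb p E ∧ Normalises Q E} [ZMOD q]) ∧
    ((∀ E : Subgroup G, IsElemAb p E → ¬ Normalises Q E) →
      (redEuler {E : Subgroup G | IsElemAb p E} ≡ -1 [ZMOD q]) ∧
        redEuler {E : Subgroup G | IsElemAb p E} ≠ 0) ∧
    ((∀ y : G, orderOf y = p → ∃ g ∈ Q, g * y ≠ y * g) →
      (∀ E : Subgroup G, IsElemAb p E → ¬ q ∣ Nat.card E - 1) →
      (redEuler {E : Subgroup G | IsElemAb p E} ≡ -1 [ZMOD q]) ∧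
        redEuler {E : Subgroup G | IsElemAb p E} ≠ 0) := by
  have hA : IsPGroup q (Q.map (MulAut.conj : G →* MulAut G)) := hQ.map _
  have hS : ∀ φ ∈ Q.map (MulAut.conj : G →* MulAut G), ∀ E ∈ {E : Subgroup G | IsElemAb p E},
      φ • E ∈ {E : Subgroup G | IsElemAb p E} := fun φ _ E hE => isElemAb_smul p φ hE
  have hset : {E : Subgroup G | E ∈ {E : Subgroup G | IsElemAb p E} ∧
      ∀ φ ∈ Q.map (MulAut.conj : G →* MulAut G), φ • E = E}
      = {E : Subgroup G | IsElemAb p E ∧ Normalises Q E} := by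
    ext E
    simp only [Set.mem_ofPred_eq, fixed_iff_normalises]
  have key : redEuler {E : Subgroup G | IsElemAb p E}
      ≡ redEuler {E : Subgroup G | IsElemAb p E ∧ Normalises Q E} [ZMOD q] := by
    have h1 := count_modEq q _ hA _ hS Odd
    have h2 := count_modEq q _ hA _ hS Even
    rw [hset] at h1 h2
    unfold redEuler
    exact ((Int.natCast_modEq_iff).2 h1).sub ((Int.natCast_modEq_iff).2 h2)
  have crit : (∀ E : Subgroup G, IsElemAb p E → ¬ Normalises Q E) →
      (redEuler {E : Subgroup G | IsElemAb p E} ≡ -1 [ZMOD q]) ∧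
        redEuler {E : Subgroup G | IsElemAb p E} ≠ 0 := by
    intro hno
    have hempty : {E : Subgroup G | IsElemAb p E ∧ Normalises Q E} = ∅ := by
      ext E
      simp only [Set.mem_ofPred_eq, Set.mem_empty_iff_false, iff_false, not_and]
      exact hno E
    rw [hempty, redEuler_empty] at key
    refine ⟨key, ?_⟩
    intro h0
    rw [h0] at key
    have h3 : (q : ℤ) ∣ -1 - 0 := (Int.modEq_iff_dvd).1 key
    have h4 : (q : ℤ) ∣ 1 := by simpa using h3
    have h5 : q ∣ 1 := by exact_mod_cast h4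
    exact (Fact.out : q.Prime).one_lt.ne' (Nat.dvd_one.1 h5)
  refine ⟨key, crit, ?_⟩
  intro hcent hdiv
  apply crit
  intro E hE hN
  apply hdiv E hE
  apply dvd_card_sub_one q Q E hQ hN
  intro y hy hcomm
  by_contra hy1
  obtain ⟨g, hg, hne⟩ := hcent y (orderOf_eq_prime (hp := ⟨hp⟩) (hE.2.2 y hy) hy1)
  exact hne (hcomm g hg)

end Vale.Agent.Results.P240.FixedPointCriterion
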