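import Mathlib
import Vale.Agent.Results.P240.FixedPointCriterion
import Vale.Agent.Results.P240.HomologicalForm

namespace Vale.Agent.Results.P240.A_Combined

/-- Conjunction of the two results on Quillen's conjecture: the fixed point congruence for the reduced
Euler characteristic of `A_p(G)`, and the non-vanishing of the reduced rational homology of `A_p(G)`
for groups with a subgroup of prime power order that normalises no member of `A_p(G)`. -/
theorem result {G : Type} [Group G] [Finite G] (p q : ℕ) (hp : p.Prime) [Fact q.Prime]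
    (Q : Subgroup G) (hQ : IsPGroup q Q) :
    ((FixedPointCriterion.redEuler {E : Subgroup G | FixedPointCriterion.IsElemAb p E}
      ≡ FixedPointCriterion.redEuler
        {E : Subgroup G | FixedPointCriterion.IsElemAb p E ∧ FixedPointCriterion.Normalises Q E}
        [ZMOD q]) ∧
    ((∀ E : Subgroup G, FixedPointCriterion.IsElemAb p E → ¬ FixedPointCriterion.Normalises Q E) →
      (FixedPointCriterion.redEuler {E : Subgroup G | FixedPointCriterion.IsElemAb p E}
          ≡ -1 [ZMOD q]) ∧
        FixedPointCriterion.redEuler {E : Subgroup G | FixedPointCriterion.IsElemAb p E} ≠ 0) ∧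
    ((∀ y : G, orderOf y = p → ∃ g ∈ Q, g * y ≠ y * g) →
      (∀ E : Subgroup G, FixedPointCriterion.IsElemAb p E → ¬ q ∣ Nat.card E - 1) →
      (FixedPointCriterion.redEuler {E : Subgroup G | FixedPointCriterion.IsElemAb p E}
          ≡ -1 [ZMOD q]) ∧
        FixedPointCriterion.redEuler {E : Subgroup G | FixedPointCriterion.IsElemAb p E} ≠ 0)) ∧
    (((∀ E : Subgroup G, HomologicalForm.IsElemAb p E → ¬ HomologicalForm.Normalises Q E) →
      ¬ HomologicalForm.Acyclic p G) ∧
    ((∀ y : G, orderOf y = p → ∃ g ∈ Q, g * y ≠ y * g) →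
      (∀ E : Subgroup G, HomologicalForm.IsElemAb p E → ¬ q ∣ Nat.card E - 1) →
      ¬ HomologicalForm.Acyclic p G)) :=
  ⟨FixedPointCriterion.result p q hp Q hQ, HomologicalForm.result p q hp Q hQ⟩

end Vale.Agent.Results.P240.A_Combined
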