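import Vale.Agent.Lib.P240.Orbit

/-! # P240: a Lefschetz number criterion for the homological form of Quillen's conjecture -/

namespace Vale.Agent.Results.P240.LefschetzForm

open Vale.Agent.Lib.P240

/-- Let `G` be a finite group, `p` a natural number, `q` a prime, `g` an element of `G` and `Q` a
`q`-subgroup of `G` normalising the cyclic group generated by `g`.  If no nonidentity elementary
abelian `p`-subgroup of `G` is normalised both by `Q` and by `g`, then the reduced rational homology
of the order complex of the poset of these subgroups does not vanish. -/
theorem result {G : Type} [Group G] [Finite G] (p q : ℕ) [Fact q.Prime] (g : G) (Q : Subgroup G)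
    (hQ : IsPGroup q Q) (hnorm : Normalises Q (Subgroup.zpowers g))
    (hno : ∀ E : Subgroup G, IsElemAb p E → Normalises Q E →
      ¬ Normalises (Subgroup.zpowers g) E) : ¬ Acyclic p G :=
  not_acyclic_of_hyperelementary p q g Q hQ hnorm hno

end Vale.Agent.Results.P240.LefschetzForm
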